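import Mathlib
import Vale.Agent.P121.Defs
import Vale.Agent.P121.Global

/-!
An absolutely continuous, compactly supported probability measure on three-space with finite
three-marginal Coulomb transport value and without any optimal Monge plan.
-/

namespace Vale.Agent.Results.P121.NoMonge

open MeasureTheory Vale.Agent.P121
open scoped ENNReal

theorem result : ∃ μ : Measure (EuclideanSpace ℝ (Fin 3)),
    IsProbabilityMeasure μ ∧ μ ≪ volume ∧ μ (Metric.closedBall 0 2)ᶜ = 0 ∧
      kantorovich μ < ∞ ∧
      ∀ T₂ T₃ : EuclideanSpace ℝ (Fin 3) → EuclideanSpace ℝ (Fin 3),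
        Measurable T₂ → Measurable T₃ → μ.map T₂ = μ → μ.map T₃ = μ →
          ∫⁻ x, coulomb (x, T₂ x, T₃ x) ∂μ ≠ kantorovich μ :=
  no_monge

end Vale.Agent.Results.P121.NoMonge
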